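import Vale.Agent.P230.PLw

/-! Multiplicative Prekopa-Leindler inequality and tools for slicing along one coordinate. -/

open MeasureTheory Set
open scoped ENNReal

namespace Vale.Agent.P227H

theorem lintegral_Ioi_exp (f : ℝ → ℝ≥0∞) :
    ∫⁻ t in Ioi (0 : ℝ), f t = ∫⁻ x, ENNReal.ofReal (Real.exp x) * f (Real.exp x) := by
  have h := lintegral_image_eq_lintegral_abs_deriv_mul (s := univ) (f := Real.exp)
    (f' := Real.exp) MeasurableSet.univ (fun x _ => (Real.hasDerivAt_exp x).hasDerivWithinAt)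
    Real.exp_injective.injOn f
  rw [image_univ, Real.range_exp, Measure.restrict_univ] at h
  rw [h]
  exact lintegral_congr fun x => by rw [abs_of_pos (Real.exp_pos x)]

/-- multiplicative Prekopa-Leindler inequality on the positive half line -/
theorem mul_pl {a b : ℝ} (ha : 0 < a) (hb : 0 < b) (hab : a + b = 1) {f g h : ℝ → ℝ≥0∞}
    (hf : Measurable f) (hg : Measurable g) (hh : Measurable h)
    (H : ∀ s t : ℝ, 0 < s → 0 < t → f s ^ a * g t ^ b ≤ h (s ^ a * t ^ b)) :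
    (∫⁻ t in Ioi (0 : ℝ), f t) ^ a * (∫⁻ t in Ioi (0 : ℝ), g t) ^ b ≤ ∫⁻ t in Ioi (0 : ℝ), h t := by
  rw [lintegral_Ioi_exp, lintegral_Ioi_exp, lintegral_Ioi_exp]
  have me : Measurable fun x : ℝ => ENNReal.ofReal (Real.exp x) :=
    Real.measurable_exp.ennreal_ofReal
  refine P230.plw_real a b ha hb hab _ _ _ (me.mul (hf.comp Real.measurable_exp))
    (me.mul (hg.comp Real.measurable_exp)) (me.mul (hh.comp Real.measurable_exp)) fun x y => ?_
  have e : Real.exp (a • x + b • y) = Real.exp x ^ a * Real.exp y ^ b := by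
    rw [smul_eq_mul, smul_eq_mul, Real.exp_add, ← Real.exp_mul, ← Real.exp_mul, mul_comm x,
      mul_comm y]
  rw [e, ENNReal.mul_rpow_of_nonneg _ _ ha.le, ENNReal.mul_rpow_of_nonneg _ _ hb.le,
    ENNReal.ofReal_rpow_of_pos (Real.exp_pos x), ENNReal.ofReal_rpow_of_pos (Real.exp_pos y),
    ENNReal.ofReal_mul (by positivity), mul_mul_mul_comm]
  exact mul_le_mul_right (H _ _ (Real.exp_pos x) (Real.exp_pos y)) _

theorem lintegral_split (f : ℝ → ℝ≥0∞) :
    ∫⁻ t, f t = (∫⁻ t in Ioi (0 : ℝ), f t) + ∫⁻ t in Ioi (0 : ℝ), f (-t) := by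
  have h1 : ∫⁻ t in Ioi (0 : ℝ), f (-t) = ∫⁻ t in Iio (0 : ℝ), f t := by
    have := (Measure.measurePreserving_neg (volume : Measure ℝ)).setLIntegral_comp_preimage_emb
      (MeasurableEquiv.neg ℝ).measurableEmbedding f (Iio 0)
    simpa using this
  rw [h1, setLIntegral_congr (Iio_ae_eq_Iic (a := (0 : ℝ))), ← compl_Ioi,
    lintegral_add_compl f measurableSet_Ioi]

/-- version on the whole line, `f` and `g` even -/
theorem mul_pl_even {a b : ℝ} (ha : 0 < a) (hb : 0 < b) (hab : a + b = 1) {f g h : ℝ → ℝ≥0∞}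
    (hf : Measurable f) (hg : Measurable g) (hh : Measurable h)
    (ef : ∀ t, f (-t) = f t) (eg : ∀ t, g (-t) = g t)
    (H : ∀ s t : ℝ, 0 < s → 0 < t → f s ^ a * g t ^ b ≤ h (s ^ a * t ^ b))
    (H' : ∀ s t : ℝ, 0 < s → 0 < t → f s ^ a * g t ^ b ≤ h (-(s ^ a * t ^ b))) :
    (∫⁻ t, f t) ^ a * (∫⁻ t, g t) ^ b ≤ ∫⁻ t, h t := by
  have h1 := mul_pl ha hb hab hf hg hh H
  have h2 := mul_pl ha hb hab hf hg (hh.comp measurable_neg) H'
  rw [lintegral_split f, lintegral_split g, lintegral_split h]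
  simp only [ef, eg]
  rw [← two_mul, ← two_mul, ENNReal.mul_rpow_of_nonneg _ _ ha.le,
    ENNReal.mul_rpow_of_nonneg _ _ hb.le, mul_mul_mul_comm,
    ← ENNReal.rpow_add _ _ (by norm_num) (by norm_num), hab, ENNReal.rpow_one, two_mul]
  exact add_le_add h1 h2

/-- two-term Hoelder inequality -/
theorem holder2 {a b p₁ p₂ q₁ q₂ : ℝ} (ha : 0 < a) (hb : 0 < b) (hab : a + b = 1)
    (hp₁ : 0 ≤ p₁) (hp₂ : 0 ≤ p₂) (hq₁ : 0 ≤ q₁) (hq₂ : 0 ≤ q₂) :
    p₁ ^ a * p₂ ^ b + q₁ ^ a * q₂ ^ b ≤ (p₁ + q₁) ^ a * (p₂ + q₂) ^ b := by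
  rcases (add_nonneg hp₁ hq₁).eq_or_lt with hP | hP
  · have e1 : p₁ = 0 := by linarith
    have e2 : q₁ = 0 := by linarith
    simp [e1, e2, Real.zero_rpow ha.ne']
  rcases (add_nonneg hp₂ hq₂).eq_or_lt with hQ | hQ
  · have e1 : p₂ = 0 := by linarith
    have e2 : q₂ = 0 := by linarith
    simp [e1, e2, Real.zero_rpow hb.ne']
  have h1 := Real.geom_mean_le_arith_mean2_weighted ha.le hb.le (div_nonneg hp₁ hP.le)
    (div_nonneg hp₂ hQ.le) hab
  have h2 := Real.geom_mean_le_arith_mean2_weighted ha.le hb.le (div_nonneg hq₁ hP.le)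
    (div_nonneg hq₂ hQ.le) hab
  rw [Real.div_rpow hp₁ hP.le, Real.div_rpow hp₂ hQ.le, div_mul_div_comm] at h1
  rw [Real.div_rpow hq₁ hP.le, Real.div_rpow hq₂ hQ.le, div_mul_div_comm] at h2
  have hD : 0 < (p₁ + q₁) ^ a * (p₂ + q₂) ^ b := by positivity
  have e : a * (p₁ / (p₁ + q₁)) + b * (p₂ / (p₂ + q₂)) +
      (a * (q₁ / (p₁ + q₁)) + b * (q₂ / (p₂ + q₂))) = 1 := by
    rw [← hab]
    field_simp
    ring
  have h3 := add_le_add h1 h2
  rw [e, ← add_div, div_le_one hD] at h3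
  exact h3

theorem measurable_cons {n : ℕ} :
    Measurable fun p : ℝ × (Fin n → ℝ) => (Fin.cons p.1 p.2 : Fin (n + 1) → ℝ) := by
  refine measurable_pi_lambda _ fun i => ?_
  refine Fin.cases ?_ (fun j => ?_) i
  · simpa using measurable_fst
  · simp only [Fin.cons_succ]
    exact (measurable_pi_apply j).comp measurable_snd

theorem measurable_vol_cons {n : ℕ} {K : Set (Fin (n + 1) → ℝ)} (hK : MeasurableSet K) :
    Measurable fun t : ℝ => volume {y : Fin n → ℝ | (Fin.cons t y : Fin (n + 1) → ℝ) ∈ K} :=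
  measurable_measure_prodMk_left (ν := (volume : Measure (Fin n → ℝ))) (measurable_cons hK)

theorem vol_eq_lintegral_cons {n : ℕ} {K : Set (Fin (n + 1) → ℝ)} (hK : MeasurableSet K) :
    volume K = ∫⁻ t : ℝ, volume {y : Fin n → ℝ | (Fin.cons t y : Fin (n + 1) → ℝ) ∈ K} := by
  have h := (volume_preserving_piFinSuccAbove (fun _ : Fin (n + 1) => ℝ) 0).symm
  rw [← h.measure_preimage hK.nullMeasurableSet]
  have e : (MeasurableEquiv.piFinSuccAbove (fun _ : Fin (n + 1) => ℝ) 0).symm ⁻¹' K =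
      (fun p : ℝ × (Fin n → ℝ) => (Fin.cons p.1 p.2 : Fin (n + 1) → ℝ)) ⁻¹' K := by
    ext p
    simp [MeasurableEquiv.piFinSuccAbove, Fin.insertNthEquiv, Fin.insertNth_zero']
  rw [e, Measure.volume_eq_prod, Measure.prod_apply (measurable_cons hK)]
  rfl

theorem null_of_interior_empty {n : ℕ} {S : Set (Fin n → ℝ)} (hS : Convex ℝ S)
    (h : interior S = ∅) : volume S = 0 := by
  refine measure_mono_null ?_ (hS.addHaar_frontier volume)
  rw [frontier, h, diff_empty]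
  exact subset_closure

end Vale.Agent.P227H
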