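import Vale.Agent.P227H.MulPL

/-! The logarithmic Brunn-Minkowski inequality passes from sections to bodies with a mirror. -/

open MeasureTheory Set
open scoped ENNReal

namespace Vale.Agent.P227H

/-- origin-symmetric convex body -/
def SymBody {n : ℕ} (K : Set (Fin n → ℝ)) : Prop :=
  IsCompact K ∧ Convex ℝ K ∧ (interior K).Nonempty ∧ ∀ x ∈ K, -x ∈ K

/-- support function -/
noncomputable def supp {n : ℕ} (K : Set (Fin n → ℝ)) (u : Fin n → ℝ) : ℝ :=
  sSup ((fun x => x ⬝ᵥ u) '' K)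

/-- logarithmic combination -/
def logComb {n : ℕ} (K L : Set (Fin n → ℝ)) (l : ℝ) : Set (Fin n → ℝ) :=
  {x | ∀ u, u ⬝ᵥ u = 1 → x ⬝ᵥ u ≤ supp K u ^ (1 - l) * supp L u ^ l}

/-- the logarithmic Brunn-Minkowski inequality for the pair `K`, `L` -/
def Ineq {n : ℕ} (K L : Set (Fin n → ℝ)) : Prop :=
  ∀ l : ℝ, 0 ≤ l → l ≤ 1 → volume K ^ (1 - l) * volume L ^ l ≤ volume (logComb K L l)

/-- invariance under the reflection in the hyperplane `x i = 0` -/
def Mirror {n : ℕ} (K : Set (Fin n → ℝ)) (i : Fin n) : Prop :=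
  ∀ x ∈ K, Function.update x i (-x i) ∈ K

def sec {n : ℕ} (K : Set (Fin (n + 1) → ℝ)) (t : ℝ) : Set (Fin n → ℝ) :=
  {y | (Fin.cons t y : Fin (n + 1) → ℝ) ∈ K}

variable {n : ℕ}

theorem le_supp {K : Set (Fin n → ℝ)} (hK : IsCompact K) {x : Fin n → ℝ} (hx : x ∈ K)
    (u : Fin n → ℝ) : x ⬝ᵥ u ≤ supp K u :=
  le_csSup (hK.image (by fun_prop)).bddAbove (mem_image_of_mem _ hx)

theorem isClosed_logComb (K L : Set (Fin n → ℝ)) (l : ℝ) : IsClosed (logComb K L l) := by
  unfold logComb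
  simp only [setOf_forall]
  exact isClosed_iInter fun u => isClosed_iInter fun _ => isClosed_le (by fun_prop) continuous_const

theorem cons_dot (s v : ℝ) (y w : Fin n → ℝ) :
    (Fin.cons s y : Fin (n + 1) → ℝ) ⬝ᵥ (Fin.cons v w : Fin (n + 1) → ℝ) = s * v + y ⬝ᵥ w := by
  simp [dotProduct, Fin.sum_univ_succ]

theorem Mirror.cons {K : Set (Fin (n + 1) → ℝ)} (h : Mirror K 0) {t : ℝ} {y : Fin n → ℝ}
    (hy : y ∈ sec K t) : y ∈ sec K (-t) := by
  have := h _ hy
  rwa [Fin.cons_zero, Fin.update_cons_zero] at this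

theorem Mirror.sec_neg {K : Set (Fin (n + 1) → ℝ)} (h : Mirror K 0) (t : ℝ) :
    sec K (-t) = sec K t :=
  Subset.antisymm (fun _ hy => by simpa using h.cons hy) fun _ hy => h.cons hy

theorem continuous_cons (t : ℝ) :
    Continuous fun y : Fin n → ℝ => (Fin.cons t y : Fin (n + 1) → ℝ) := by
  refine continuous_pi fun i => ?_
  refine Fin.cases ?_ (fun j => ?_) i
  · simpa using continuous_const
  · simp only [Fin.cons_succ]
    exact continuous_apply j

theorem sec_compact {K : Set (Fin (n + 1) → ℝ)} (hK : IsCompact K) (t : ℝ) :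
    IsCompact (sec K t) := by
  have h : IsCompact ((fun x : Fin (n + 1) → ℝ => (Fin.tail x : Fin n → ℝ)) '' K) :=
    hK.image (continuous_pi fun j => continuous_apply j.succ)
  refine h.of_isClosed_subset (hK.isClosed.preimage (continuous_cons t)) fun y hy => ?_
  exact ⟨_, hy, by simp⟩

theorem sec_convex {K : Set (Fin (n + 1) → ℝ)} (hK : Convex ℝ K) (t : ℝ) :
    Convex ℝ (sec K t) := by
  intro x hx y hy a b ha hb hab
  have := hK hx hy ha hb hab
  have e : (Fin.cons t (a • x + b • y) : Fin (n + 1) → ℝ) =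
      a • (Fin.cons t x : Fin (n + 1) → ℝ) + b • (Fin.cons t y : Fin (n + 1) → ℝ) := by
    funext i
    refine Fin.cases ?_ (fun j => ?_) i
    · simp only [Fin.cons_zero, Pi.add_apply, Pi.smul_apply, smul_eq_mul]
      rw [← add_mul, hab, one_mul]
    · simp
  change (Fin.cons t (a • x + b • y) : Fin (n + 1) → ℝ) ∈ K
  rw [e]
  exact this

theorem sec_symm {K : Set (Fin (n + 1) → ℝ)} (hK : ∀ x ∈ K, -x ∈ K) (h : Mirror K 0) (t : ℝ) :
    ∀ y ∈ sec K t, -y ∈ sec K t := by
  intro y hy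
  have h1 := hK _ (h.cons hy)
  have e : -(Fin.cons (-t) y : Fin (n + 1) → ℝ) = Fin.cons t (-y) := by
    funext i
    refine Fin.cases ?_ (fun j => ?_) i <;> simp
  rwa [e] at h1

theorem sec_body_or {K : Set (Fin (n + 1) → ℝ)} (hK : SymBody K) (h : Mirror K 0) (t : ℝ) :
    SymBody (sec K t) ∨ volume (sec K t) = 0 := by
  rcases (interior (sec K t)).eq_empty_or_nonempty with h0 | h0
  · exact Or.inr (null_of_interior_empty (sec_convex hK.2.1 t) h0)
  · exact Or.inl ⟨sec_compact hK.1 t, sec_convex hK.2.1 t, h0, sec_symm hK.2.2.2 h t⟩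

theorem supp_nonneg {K : Set (Fin n → ℝ)} (hK : SymBody K) (u : Fin n → ℝ) : 0 ≤ supp K u := by
  obtain ⟨x, hx⟩ := hK.2.2.1
  have h1 := le_supp hK.1 (interior_subset hx) u
  have h2 := le_supp hK.1 (hK.2.2.2 x (interior_subset hx)) u
  rw [neg_dotProduct] at h2
  linarith

theorem supp_cons {K : Set (Fin (n + 1) → ℝ)} (hK : IsCompact K) (h : Mirror K 0) {s : ℝ}
    (hS : (sec K s).Nonempty) (v : ℝ) {r : ℝ} (hr : 0 ≤ r) (w : Fin n → ℝ) :
    |v| * s + r * supp (sec K s) w ≤ supp K (Fin.cons v (r • w)) := by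
  have key : ∀ y ∈ sec K s, |v| * s + r * (y ⬝ᵥ w) ≤ supp K (Fin.cons v (r • w)) := by
    intro y hy
    have h1 := le_supp hK hy (Fin.cons v (r • w))
    have h2 := le_supp hK (h.cons hy) (Fin.cons v (r • w))
    rw [cons_dot, dotProduct_smul, smul_eq_mul] at h1 h2
    rcases abs_cases v with h3 | h3 <;> rw [h3.1] <;> linarith
  rcases hr.eq_or_lt with rfl | hr
  · obtain ⟨y, hy⟩ := hS
    simpa using key y hy
  · have : supp (sec K s) w ≤ (supp K (Fin.cons v (r • w)) - |v| * s) / r := by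
      refine csSup_le (hS.image _) ?_
      rintro _ ⟨y, hy, rfl⟩
      rw [le_div_iff₀ hr]
      linarith [key y hy]
    rw [le_div_iff₀ hr] at this
    linarith

theorem exists_polar (w : Fin n → ℝ) :
    ∃ (r : ℝ) (w' : Fin n → ℝ), 0 ≤ r ∧ w = r • w' ∧ (r = 0 ∨ w' ⬝ᵥ w' = 1) := by
  by_cases hw : w = 0
  · exact ⟨0, 0, le_rfl, by simp [hw], Or.inl rfl⟩
  have h0 : 0 ≤ w ⬝ᵥ w := Finset.sum_nonneg fun i _ => mul_self_nonneg _
  have h1 : 0 < w ⬝ᵥ w := h0.lt_of_ne fun h => hw (dotProduct_self_eq_zero.1 h.symm)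
  have h2 : 0 < √(w ⬝ᵥ w) := Real.sqrt_pos.2 h1
  refine ⟨√(w ⬝ᵥ w), (√(w ⬝ᵥ w))⁻¹ • w, h2.le, ?_, Or.inr ?_⟩
  · rw [smul_smul, mul_inv_cancel₀ h2.ne', one_smul]
  · rw [smul_dotProduct, dotProduct_smul, smul_eq_mul, smul_eq_mul, ← mul_assoc, ← mul_inv,
      Real.mul_self_sqrt h0, inv_mul_cancel₀ h1.ne']

theorem logComb_sec {K L : Set (Fin (n + 1) → ℝ)} (hK : IsCompact K) (hL : IsCompact L)
    (mK : Mirror K 0) (mL : Mirror L 0) {s t l : ℝ} (hs : 0 < s) (ht : 0 < t) (hl0 : 0 < l)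
    (hl1 : l < 1) (hS : SymBody (sec K s)) (hT : SymBody (sec L t)) {z : ℝ}
    (hz : |z| = s ^ (1 - l) * t ^ l) :
    logComb (sec K s) (sec L t) l ⊆ sec (logComb K L l) z := by
  intro y hy u hu
  obtain ⟨r, w, hr, hw, hrw⟩ := exists_polar (Fin.tail u : Fin n → ℝ)
  have hu' : u = Fin.cons (u 0) (r • w) := by rw [← hw, Fin.cons_self_tail]
  generalize u 0 = v at hu'
  subst hu'
  have ha : 0 < 1 - l := by linarith
  have hab : 1 - l + l = 1 := by ring
  have h1 := supp_cons hK mK (hS.2.2.1.mono interior_subset) v hr w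
  have h2 := supp_cons hL mL (hT.2.2.1.mono interior_subset) v hr w
  have hA := supp_nonneg hS w
  have hB := supp_nonneg hT w
  have hv := abs_nonneg v
  have e1 : ∀ c p q : ℝ, 0 ≤ c → 0 ≤ p → 0 ≤ q →
      (c * p) ^ (1 - l) * (c * q) ^ l = c * (p ^ (1 - l) * q ^ l) := by
    intro c p q hc hp hq
    rw [Real.mul_rpow hc hp, Real.mul_rpow hc hq, mul_mul_mul_comm,
      ← Real.rpow_add' hc (by rw [hab]; exact one_ne_zero), hab, Real.rpow_one]
  have h3 : r * (y ⬝ᵥ w) ≤ r * (supp (sec K s) w ^ (1 - l) * supp (sec L t) w ^ l) := by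
    rcases hrw with rfl | hrw
    · simp
    · exact mul_le_mul_of_nonneg_left (hy w hrw) hr
  have h4 : z * v ≤ |v| * (s ^ (1 - l) * t ^ l) := by
    rw [← hz, ← abs_mul, mul_comm]
    exact le_abs_self _
  have h5 := holder2 ha hl0 hab (mul_nonneg hv hs.le) (mul_nonneg hv ht.le)
    (mul_nonneg hr hA) (mul_nonneg hr hB)
  rw [e1 _ _ _ hv hs.le ht.le, e1 _ _ _ hr hA hB] at h5
  have h6 : (|v| * s + r * supp (sec K s) w) ^ (1 - l) * (|v| * t + r * supp (sec L t) w) ^ l ≤
      supp K (Fin.cons v (r • w)) ^ (1 - l) * supp L (Fin.cons v (r • w)) ^ l := by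
    have h0 : 0 ≤ supp K (Fin.cons v (r • w)) := le_trans (by positivity) h1
    gcongr
  rw [cons_dot, dotProduct_smul, smul_eq_mul]
  linarith

theorem ineq_zero {K L : Set (Fin n → ℝ)} (hK : IsCompact K) :
    volume K ^ (1 - (0 : ℝ)) * volume L ^ (0 : ℝ) ≤ volume (logComb K L 0) := by
  simp only [sub_zero, ENNReal.rpow_one, ENNReal.rpow_zero, mul_one]
  refine measure_mono fun x hx u _ => ?_
  simpa using le_supp hK hx u

theorem ineq_one {K L : Set (Fin n → ℝ)} (hL : IsCompact L) :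
    volume K ^ (1 - (1 : ℝ)) * volume L ^ (1 : ℝ) ≤ volume (logComb K L 1) := by
  simp only [sub_self, ENNReal.rpow_one, ENNReal.rpow_zero, one_mul]
  refine measure_mono fun x hx u _ => ?_
  simpa using le_supp hL hx u

/-- the section step -/
theorem step {K L : Set (Fin (n + 1) → ℝ)} (hK : SymBody K) (hL : SymBody L)
    (mK : Mirror K 0) (mL : Mirror L 0)
    (H : ∀ s t : ℝ, SymBody (sec K s) → SymBody (sec L t) → Ineq (sec K s) (sec L t)) :
    Ineq K L := by
  intro l hl0 hl1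
  rcases hl0.eq_or_lt with rfl | hl0
  · exact ineq_zero hK.1
  rcases hl1.eq_or_lt with rfl | hl1
  · exact ineq_one hL.1
  have ha : 0 < 1 - l := by linarith
  have mM := (isClosed_logComb K L l).measurableSet
  have key : ∀ s t : ℝ, 0 < s → 0 < t → ∀ z : ℝ, |z| = s ^ (1 - l) * t ^ l →
      volume (sec K s) ^ (1 - l) * volume (sec L t) ^ l ≤ volume (sec (logComb K L l) z) := by
    intro s t hs ht z hz
    rcases sec_body_or hK mK s with hS | hS
    · rcases sec_body_or hL mL t with hT | hT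
      · exact (H s t hS hT l hl0.le hl1.le).trans
          (measure_mono (logComb_sec hK.1 hL.1 mK mL hs ht hl0 hl1 hS hT hz))
      · simp [hT, ENNReal.zero_rpow_of_pos hl0]
    · simp [hS, ENNReal.zero_rpow_of_pos ha]
  rw [vol_eq_lintegral_cons hK.1.measurableSet, vol_eq_lintegral_cons hL.1.measurableSet,
    vol_eq_lintegral_cons mM]
  refine mul_pl_even ha hl0 (by ring) (measurable_vol_cons hK.1.measurableSet)
    (measurable_vol_cons hL.1.measurableSet) (measurable_vol_cons mM)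
    (fun t => congrArg volume (mK.sec_neg t)) (fun t => congrArg volume (mL.sec_neg t))
    (fun s t hs ht => key s t hs ht _ (abs_of_pos (by positivity)))
    (fun s t hs ht => key s t hs ht _ ?_)
  rw [abs_neg]
  exact abs_of_pos (by positivity)

theorem Mirror.sec_succ {K : Set (Fin (n + 1) → ℝ)} {i : Fin n} (h : Mirror K i.succ) (t : ℝ) :
    Mirror (sec K t) i := by
  intro y hy
  have := h _ hy
  rw [Fin.cons_succ, ← Fin.cons_update] at this
  exact this

/-- from dimension `n` to pairs in dimension `n + k` with `k` common coordinate mirrors -/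
theorem lift (H : ∀ K L : Set (Fin n → ℝ), SymBody K → SymBody L → Ineq K L) (k : ℕ) :
    ∀ K L : Set (Fin (n + k) → ℝ), SymBody K → SymBody L →
      (∀ i : Fin (n + k), i.val < k → Mirror K i ∧ Mirror L i) → Ineq K L := by
  induction k with
  | zero => exact fun K L hK hL _ => H K L hK hL
  | succ k ih =>
    intro K L hK hL hm
    have h0 := hm (0 : Fin (n + k + 1)) (Nat.succ_pos k)
    refine step (n := n + k) hK hL h0.1 h0.2 fun s t hS hT => ih _ _ hS hT fun i hi => ?_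
    have h1 := hm (i.succ : Fin (n + k + 1)) (by simpa using hi)
    exact ⟨h1.1.sec_succ s, h1.2.sec_succ t⟩

end Vale.Agent.P227H
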